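import Vale.Agent.P007.Main

open MeasureTheory Filter NumberField Vale.Agent.P007

namespace Vale.Agent.Results.P007.B_subfield

theorem result :
    (∀ n : ℕ, 4 ≤ n → ¬ n.Prime →
      ∃ (K : ℕ → Type) (_ : ∀ i, Field (K i)) (_ : ∀ i, NumberField (K i)),
        (∀ i, IsTotallyReal (K i) ∧ Module.finrank ℚ (K i) = n ∧
          Nonempty (Fin n ≃ (K i →+* ℝ)) ∧
          ∀ σ : Fin n ≃ (K i →+* ℝ), (packet (integralClosure ℤ (K i)).toSubring σ).Nonempty) ∧
        Tendsto (fun i => |discr (K i)|) atTop atTop ∧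
        ∃ f : CompactlySupportedContinuousMap (X n) ℝ,
          (∀ m : Measure (X n), IsInvProb m → 0 < ∫ x, f x ∂m) ∧
          ∀ (i : ℕ) (σ : Fin n ≃ (K i →+* ℝ)),
            (∀ x ∈ packet (integralClosure ℤ (K i)).toSubring σ, f x = 0) ∧
            ∀ μ : Measure (X n), μ (packet (integralClosure ℤ (K i)).toSubring σ)ᶜ = 0 →
              ∫ x, f x ∂μ = 0) ∧
    (∀ n D : ℕ, 1 ≤ n → ∃ f : CompactlySupportedContinuousMap (X n) ℝ, (∀ x, 0 ≤ f x) ∧
      (∀ m : Measure (X n), IsInvProb m → 0 < ∫ x, f x ∂m) ∧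
      ∀ (K : Type) [Field K] [NumberField K] (O : Subring K) (σ : Fin n ≃ (K →+* ℝ))
        (F : IntermediateField ℚ K), IsTotallyReal K → IsOrder O → F ≠ ⊥ →
        orderDisc (O.comap (algebraMap F K)) ≤ D → ∀ x ∈ packet O σ, f x = 0) :=
  ⟨composite, necessary⟩

end Vale.Agent.Results.P007.B_subfield
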